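import Vale.Agent.P207.N4.Dim
import Vale.Agent.P207.N4.H545.Tens

/-!
N3-P5 (helper545): LEMMA R for symmetric tensors and for `W = N ∇f` on the leaves.
-/

set_option maxSynthPendingDepth 3

open Set Filter Topology Metric
open scoped ContDiff

noncomputable section

namespace Vale.Agent.P207.N4.H545

open Vale.Agent.P207.N3 Vale.Agent.P207.N3.H545 Vale.Agent.P207.N4

variable [Dim]


variable {Γ X B : Type} [Group Γ] [MetricSpace X] [ProperSpace X] [MulAction Γ X]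
  [IsIsometricSMul Γ X] [TopologicalSpace B] [CompactSpace B] [T2Space B] [MulAction Γ B]
  [ContinuousConstSMul Γ B]

variable (L : Leaf Γ X B)

/-- the inverse derivative of the step `φ_t y → y` -/
def Sx (y : X) (t : ℝ) (u : E2) : E2 →L[ℝ] E2 := Ring.inverse (fderiv ℝ (L.τ (L.φ t y) y) u)

theorem Sx_CkB (k : ℕ) (T : ℝ) : ∃ c : ℝ, 0 ≤ c ∧ ∀ y, ∀ t ∈ Icc L.t1 T,
    CkB k 2 c (Sx L y t) := exists_inv_step_CkB L k T

theorem conjT_CkB (k : ℕ) (T : ℝ) : ∃ c : ℝ, 0 ≤ c ∧ ∀ y, ∀ t ∈ Icc L.t1 T,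
    CkB k 2 c (fun u => conjT (Sx L y t u)) := by
  obtain ⟨c, hc, h⟩ := Sx_CkB L k T
  refine ⟨‖ContinuousLinearMap.mulLeftRight ℝ (E2 →L[ℝ] E2)‖ * (2 ^ k * (c * c)), by positivity,
    fun y t ht => ?_⟩
  exact CkB_bilin (ContinuousLinearMap.mulLeftRight ℝ (E2 →L[ℝ] E2)) (h y t ht)
    (CkB_star (h y t ht)) hc hc

variable {L} in
theorem Sx_mul {t : ℝ} (ht : L.t1 ≤ t) (y : X) {u : E2} (hu : u ∈ ball (0 : E2) 3) :
    Sx L y t u * fderiv ℝ (L.τ (L.φ t y) y) u = 1 := by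
  have hdm : u ∈ L.dm (L.φ t y) y := by rw [dm_step L ht y]; exact hu
  exact Ring.inverse_mul_cancel _ (isUnit_fderiv_tau L (L.em_φ t y) hdm)

/-- the smooth part `R` on the unit disc of radius `2` -/
theorem R_CkB {L : Leaf Γ X B} (T : Tens L) (k : ℕ) (S : ℝ) : ∃ c : ℝ, 0 ≤ c ∧ ∀ y,
    ∀ t ∈ Icc L.t1 S, CkB k 2 c (T.R (L.φ t y) y) := by
  choose C hC using fun i => T.R_bound i S
  refine ⟨∑ i ∈ Finset.range (k + 1), |C i|, Finset.sum_nonneg fun _ _ => abs_nonneg _,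
    fun y t ht => ?_⟩
  have h23 : ball (0 : E2) 2 ⊆ ball 0 3 := ball_subset_ball (by norm_num)
  refine ⟨?_, fun i hi u hu => ?_⟩
  · have h1 := T.R_smooth (L.φ t y) y (L.em_φ t y)
    rw [dm_step L ht.1 y] at h1
    exact (h1.mono h23).of_le (by exact_mod_cast le_top)
  · refine (hC i y t ht u (h23 hu)).trans ((le_abs_self _).trans ?_)
    exact Finset.single_le_sum (f := fun i => |C i|) (fun _ _ => abs_nonneg _)
      (Finset.mem_range.mpr (Nat.lt_succ_of_le hi))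

/-- `N` is bounded on the discs of radius `2`. -/
theorem N_bound {L : Leaf Γ X B} (T : Tens L) : ∃ b : ℝ, 0 ≤ b ∧ ∀ x, ∀ u ∈ closedBall (0 : E2) 2,
    ‖T.N x u‖ ≤ b := by
  obtain ⟨K, hK, hKΓ⟩ := L.cocompact
  have h23 : closedBall (0 : E2) 2 ⊆ ball 0 3 := closedBall_subset_ball (by norm_num)
  have hcomp : IsCompact (K ×ˢ closedBall (0 : E2) 2) := hK.prod (isCompact_closedBall _ _)
  obtain ⟨b, hb⟩ := hcomp.exists_bound_of_continuousOn
    (T.N_cont.mono (fun p hp => ⟨mem_univ _, h23 hp.2⟩))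
  refine ⟨max b 0, le_max_right _ _, fun x u hu => ?_⟩
  obtain ⟨g, hg⟩ := hKΓ x
  have := hb (g • x, u) ⟨hg, hu⟩
  simp only at this
  rw [T.N_smul g x u (h23 hu)] at this
  exact this.trans (le_max_left _ _)

/-- the transformation of `N` along a step, solved for the higher frame. -/
theorem N_step {L : Leaf Γ X B} (T : Tens L) {t : ℝ} (ht : L.t1 ≤ t) (y : X) {u : E2}
    (hu : u ∈ ball (0 : E2) 3) :
    T.N (L.φ t y) u = conjT (Sx L y t u) (T.N y (L.τ (L.φ t y) y u)) +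
      -conjT (Sx L y t u) (T.R (L.φ t y) y u) := by
  have hdm : u ∈ L.dm (L.φ t y) y := by rw [dm_step L ht y]; exact hu
  have h1 := T.R_eq (L.φ t y) y (L.em_φ t y) u hdm
  have h2 := Sx_mul ht y hu
  set D := fderiv ℝ (L.τ (L.φ t y) y) u with hD
  set S := Sx L y t u with hS
  have h3 : star D * star S = 1 := by rw [← star_mul, h2, star_one]
  rw [h1]
  have e1 : D ∘L T.N (L.φ t y) u ∘L ContinuousLinearMap.adjoint D =
      D * T.N (L.φ t y) u * star D := by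
    rw [ContinuousLinearMap.star_eq_adjoint, mul_assoc]; rfl
  rw [e1, ← sub_eq_add_neg, ← map_sub, add_sub_cancel_right, conjT_apply]
  calc T.N (L.φ t y) u = 1 * T.N (L.φ t y) u * 1 := by rw [one_mul, mul_one]
    _ = (S * D) * T.N (L.φ t y) u * (star D * star S) := by rw [h2, h3]
    _ = S * (D * T.N (L.φ t y) u * star D) * star S := by noncomm_ring

/-- the gradient of a function on the leaf, in the chart of `x` -/
def grd (f : B → ℝ) (x : X) : E2 → E2 := gradient (fun u => f (L.e x u))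

/-- `W = N ∇f`, the vector field `E^s(df, ·)` in the chart of `x` -/
def Wf {L : Leaf Γ X B} (T : Tens L) (f : B → ℝ) (x : X) (u : E2) : E2 := T.N x u (grd L f x u)

theorem grd_step {f : B → ℝ} {t : ℝ} (ht : L.t1 ≤ t) (y : X) {u : E2}
    (hu : u ∈ ball (0 : E2) 3)
    (hf : DifferentiableAt ℝ (fun v => f (L.e y v)) (L.τ (L.φ t y) y u)) :
    grd L f (L.φ t y) u = star (fderiv ℝ (L.τ (L.φ t y) y) u)
      (grd L f y (L.τ (L.φ t y) y u)) := by
  have h1 : (fun v => f (L.e (L.φ t y) v)) =ᶠ[𝓝 u]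
      fun v => (fun w => f (L.e y w)) (L.τ (L.φ t y) y v) := by
    filter_upwards [isOpen_ball.mem_nhds hu] with v hv
    exact fun_step L f ht y (ball_subset_closedBall hv)
  have hdm : u ∈ L.dm (L.φ t y) y := by rw [dm_step L ht y]; exact hu
  unfold grd
  rw [gradient_congr h1, gradient_comp (F := fun w => f (L.e y w)) hf
    ((tau_contDiffAt L (L.em_φ t y) hdm).differentiableAt (by simp)),
    ContinuousLinearMap.star_eq_adjoint]

/-- the recursion of `W = N ∇f` -/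
theorem Wf_step {L : Leaf Γ X B} (T : Tens L) {f : B → ℝ} {t : ℝ} (ht : L.t1 ≤ t) (y : X) {u : E2}
    (hu : u ∈ ball (0 : E2) 3)
    (hf : DifferentiableAt ℝ (fun v => f (L.e y v)) (L.τ (L.φ t y) y u)) :
    Wf T f (L.φ t y) u = Sx L y t u (Wf T f y (L.τ (L.φ t y) y u)) +
      -(Sx L y t u (T.R (L.φ t y) y u (grd L f y (L.τ (L.φ t y) y u)))) := by
  have h2 := Sx_mul ht y hu
  have h1 := grd_step L ht y hu hf
  unfold Wf
  rw [h1, N_step T ht y hu, conjT_apply, conjT_apply]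
  set D := fderiv ℝ (L.τ (L.φ t y) y) u with hD
  set S := Sx L y t u with hS
  have h4 : star S * star D = star (D * S) := (star_mul _ _).symm
  have hunit : IsUnit D := by
    have hdm : u ∈ L.dm (L.φ t y) y := by rw [dm_step L ht y]; exact hu
    exact isUnit_fderiv_tau L (L.em_φ t y) hdm
  have h5 : D * S = 1 := Ring.mul_inverse_cancel D hunit
  have h6 : star S * star D = 1 := by rw [h4, h5, star_one]
  set g := grd L f y (L.τ (L.φ t y) y u) with hg
  have h7 : (star S) ((star D) g) = g := by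
    have : (star S * star D) g = g := by rw [h6]; rfl
    exact this
  have e1 : ∀ P : E2 →L[ℝ] E2, (S * P * star S) ((star D) g) = S (P g) := by
    intro P
    have : (S * P * star S) ((star D) g) = S (P ((star S) ((star D) g))) := rfl
    rw [this, h7]
  have e2 : ∀ P Q : E2 →L[ℝ] E2, (P + -Q) ((star D) g) = P ((star D) g) + -(Q ((star D) g)) :=
    fun P Q => rfl
  rw [e2, e1, e1]

/-! ### LEMMA R -/

/-- LEMMA R for vector fields on the leaf (matrix `S = (Dτ)⁻¹`), unit steps, general error. -/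
theorem vec_R (Λ : ℝ) : ∃ k₀ : ℕ, ∀ k ≥ k₀, ∃ C : ℝ, 1 ≤ C ∧
    ∀ (y : X) (n : ℕ) (M : ℝ) (V Err : ℕ → E2 → E2), 0 ≤ M →
      (∀ s ≤ n, ContDiffOn ℝ k (V s) (ball 0 2)) →
      (∀ s < n, ∀ u ∈ ball (0 : E2) 2, V s u = Sx L (stp L y n (s + 1)) (ts L) u
        (V (s + 1) (L.τ (stp L y n s) (stp L y n (s + 1)) u)) + Err s u) →
      (∀ s ≤ n, ∀ u ∈ ball (0 : E2) 2, ‖V s u‖ ≤ M * Real.exp (Λ * s)) →
      (∀ s < n, CkB k 2 (M * Real.exp (Λ * s)) (Err s)) →
      CkB k 2 (M * Real.exp (Λ * n)) (V n) →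
      ∀ s ≤ n, CkB k 2 (C * (M * Real.exp (Λ * s))) (V s) := by
  have hts : ts L ∈ Icc L.t1 (ts L) := ⟨t1_le_ts L, le_rfl⟩
  obtain ⟨a, ha, hA⟩ := Sx_CkB L 0 (ts L)
  obtain ⟨k₀, hk₀⟩ := lemma_R_leaf L a Λ
  refine ⟨k₀, fun k hk => ?_⟩
  obtain ⟨c, hc, hC'⟩ := Sx_CkB L k (ts L)
  obtain ⟨C, hC1, hC⟩ := hk₀ k hk c
  refine ⟨C, hC1, ?_⟩
  intro y n M V Err hM hsm hrec h0 hErr hn
  exact hC E2 y n M V Err (fun s => Sx L (stp L y n (s + 1)) (ts L)) hM hsm
    (fun s _ u hu => (hA _ _ hts).norm_le hu) (fun s _ => hC' _ _ hts) hrec h0 hErr hn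

/-- LEMMA R for symmetric tensors on the leaf (`V ↦ S V Sᵀ`), unit steps, general error. -/
theorem sym_R (Λ : ℝ) : ∃ k₀ : ℕ, ∀ k ≥ k₀, ∃ C : ℝ, 1 ≤ C ∧
    ∀ (y : X) (n : ℕ) (M : ℝ) (V Err : ℕ → E2 → (E2 →L[ℝ] E2)), 0 ≤ M →
      (∀ s ≤ n, ContDiffOn ℝ k (V s) (ball 0 2)) →
      (∀ s < n, ∀ u ∈ ball (0 : E2) 2, V s u = conjT (Sx L (stp L y n (s + 1)) (ts L) u)
        (V (s + 1) (L.τ (stp L y n s) (stp L y n (s + 1)) u)) + Err s u) →
      (∀ s ≤ n, ∀ u ∈ ball (0 : E2) 2, ‖V s u‖ ≤ M * Real.exp (Λ * s)) →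
      (∀ s < n, CkB k 2 (M * Real.exp (Λ * s)) (Err s)) →
      CkB k 2 (M * Real.exp (Λ * n)) (V n) →
      ∀ s ≤ n, CkB k 2 (C * (M * Real.exp (Λ * s))) (V s) := by
  have hts : ts L ∈ Icc L.t1 (ts L) := ⟨t1_le_ts L, le_rfl⟩
  obtain ⟨a, ha, hA⟩ := conjT_CkB L 0 (ts L)
  obtain ⟨k₀, hk₀⟩ := lemma_R_leaf L a Λ
  refine ⟨k₀, fun k hk => ?_⟩
  obtain ⟨c, hc, hC'⟩ := conjT_CkB L k (ts L)
  obtain ⟨C, hC1, hC⟩ := hk₀ k hk c
  refine ⟨C, hC1, ?_⟩
  intro y n M V Err hM hsm hrec h0 hErr hn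
  exact hC (E2 →L[ℝ] E2) y n M V Err (fun s u => conjT (Sx L (stp L y n (s + 1)) (ts L) u)) hM hsm
    (fun s _ u hu => (hA _ _ hts).norm_le hu) (fun s _ => hC' _ _ hts) hrec h0 hErr hn

/-- smoothness of `N` passes to the higher frames -/
theorem N_smooth_step {L : Leaf Γ X B} (T : Tens L) {k : ℕ} {t : ℝ} (ht : L.t1 ≤ t) {y : X}
    (h : ContDiffOn ℝ k (T.N y) (ball (0 : E2) 1)) :
    ContDiffOn ℝ k (T.N (L.φ t y)) (ball (0 : E2) 2) := by
  have h23 : ball (0 : E2) 2 ⊆ ball 0 3 := ball_subset_ball (by norm_num)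
  obtain ⟨c, hc, hS⟩ := conjT_CkB L k t
  obtain ⟨c', hc', hR⟩ := R_CkB T k t
  have htt : t ∈ Icc L.t1 t := ⟨ht, le_rfl⟩
  have h1 : ContDiffOn ℝ k (L.τ (L.φ t y) y) (ball (0 : E2) 2) :=
    ((tau_step_smooth L ht y).mono h23).of_le (by exact_mod_cast le_top)
  have h2 := h.comp h1 (fun u hu => tau_step_mem L ht y (ball_subset_closedBall (h23 hu)))
  have h3 := ((hS y t htt).1.clm_apply h2).add ((hS y t htt).1.clm_apply (hR y t htt).1).neg
  refine h3.congr fun u hu => ?_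
  exact N_step T ht y (h23 hu)

/-- LEMMA R for `N` itself: initial bounds of exponential size become uniform. -/
theorem N_R {L : Leaf Γ X B} (T : Tens L) {Λ : ℝ} (hΛ : 0 ≤ Λ) : ∃ k₀ : ℕ, ∀ k ≥ k₀, ∃ C : ℝ,
    1 ≤ C ∧ ∀ (y : X) (n : ℕ) (M : ℝ), 1 ≤ M → CkB k 2 (M * Real.exp (Λ * n)) (T.N y) →
      ∀ s ≤ n, CkB k 2 (C * (M * Real.exp (Λ * s))) (T.N (stp L y n s)) := by
  have hts : ts L ∈ Icc L.t1 (ts L) := ⟨t1_le_ts L, le_rfl⟩
  have h23 : ball (0 : E2) 2 ⊆ ball 0 3 := ball_subset_ball (by norm_num)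
  obtain ⟨k₀, hk₀⟩ := sym_R L Λ
  refine ⟨k₀, fun k hk => ?_⟩
  obtain ⟨C, hC1, hC⟩ := hk₀ k hk
  obtain ⟨b, hb, hN⟩ := N_bound T
  obtain ⟨c, hc, hS⟩ := conjT_CkB L k (ts L)
  obtain ⟨c', hc', hR⟩ := R_CkB T k (ts L)
  set K : ℝ := 1 + b + ‖ContinuousLinearMap.id ℝ ((E2 →L[ℝ] E2) →L[ℝ] (E2 →L[ℝ] E2))‖ *
    (2 ^ k * (c * c')) with hK
  have hK2 : 0 ≤ ‖ContinuousLinearMap.id ℝ ((E2 →L[ℝ] E2) →L[ℝ] (E2 →L[ℝ] E2))‖ *
    (2 ^ k * (c * c')) := by positivity
  have hK1 : 1 ≤ K := by rw [hK]; linarith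
  refine ⟨C * K, by nlinarith, ?_⟩
  intro y n M hM hn s hs
  have hM0 : 0 ≤ M := zero_le_one.trans hM
  have hexp : ∀ s : ℕ, 1 ≤ Real.exp (Λ * s) := fun s => Real.one_le_exp (by positivity)
  have hstep : ∀ s, stp L y n s = L.φ (ts L) (stp L y n (s + 1)) := stp_step L y n
  have hsm : ∀ m ≤ n, ∀ s, s + m = n → ContDiffOn ℝ k (T.N (stp L y n s)) (ball 0 2) := by
    intro m
    induction m with
    | zero =>
      intro _ s hs
      have : s = n := by omega
      subst this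
      rw [stp_self]; exact hn.1
    | succ m ihm =>
      intro hm s hs
      rw [hstep s]
      exact N_smooth_step T (t1_le_ts L)
        ((ihm (by omega) (s + 1) (by omega)).mono (ball_subset_ball (by norm_num)))
  have key := hC y n (K * M) (fun s => T.N (stp L y n s))
    (fun s u => -conjT (Sx L (stp L y n (s + 1)) (ts L) u)
      (T.R (L.φ (ts L) (stp L y n (s + 1))) (stp L y n (s + 1)) u)) (by positivity)
    (fun s hs => hsm (n - s) (by omega) s (by omega))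
    (by
      intro s _ u hu
      have := N_step T (t1_le_ts L) (stp L y n (s + 1)) (h23 hu)
      rw [hstep s]
      exact this)
    (by
      intro s _ u hu
      refine (hN _ u (ball_subset_closedBall hu)).trans ?_
      have h1 := hexp s
      calc b ≤ K := by rw [hK]; linarith
        _ = K * 1 * 1 := by ring
        _ ≤ K * M * Real.exp (Λ * s) := by gcongr)
    (by
      intro s _
      have h1 := CkB_neg (CkB_bilin (ContinuousLinearMap.id ℝ ((E2 →L[ℝ] E2) →L[ℝ] (E2 →L[ℝ] E2)))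
        (hS (stp L y n (s + 1)) (ts L) hts) (hR (stp L y n (s + 1)) (ts L) hts) hc hc')
      refine h1.mono le_rfl le_rfl ?_
      have h1 := hexp s
      calc _ ≤ K := by rw [hK]; linarith
        _ = K * 1 * 1 := by ring
        _ ≤ K * M * Real.exp (Λ * s) := by gcongr)
    (by
      simp only [stp_self]
      refine hn.mono le_rfl le_rfl ?_
      refine mul_le_mul_of_nonneg_right ?_ (Real.exp_pos _).le
      nlinarith) s hs
  refine key.mono le_rfl le_rfl (le_of_eq (by ring))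

/-- LEMMA R for a function together with `W = N ∇f`, unit steps. -/
theorem W_R {L : Leaf Γ X B} (T : Tens L) (Λ : ℝ) : ∃ k₀ : ℕ, ∀ k ≥ k₀, ∃ C : ℝ, 1 ≤ C ∧
    ∀ (f : B → ℝ) (c : ℝ) (y : X) (n : ℕ) (M : ℝ), 0 ≤ M →
      (∀ s ≤ n, ∀ u ∈ ball (0 : E2) 2, ‖f (L.e (stp L y n s) u) - c‖ ≤ M * Real.exp (Λ * s)) →
      CkB (k + 1) 2 (M * Real.exp (Λ * n)) (fun u => f (L.e y u) - c) →
      CkB k 2 (M * Real.exp (Λ * n)) (Wf T f y) →
      ∀ s ≤ n, CkB (k + 1) 2 (C * (M * Real.exp (Λ * s))) (fun u => f (L.e (stp L y n s) u) - c) ∧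
        CkB k 2 (C * (M * Real.exp (Λ * s))) (Wf T f (stp L y n s)) := by
  have hts : ts L ∈ Icc L.t1 (ts L) := ⟨t1_le_ts L, le_rfl⟩
  have h23 : ball (0 : E2) 2 ⊆ ball 0 3 := ball_subset_ball (by norm_num)
  have h12 : ball (0 : E2) 1 ⊆ ball 0 2 := ball_subset_ball (by norm_num)
  obtain ⟨k₁, hk₁⟩ := fun_R L Λ
  obtain ⟨k₂, hk₂⟩ := vec_R L Λ
  refine ⟨max k₁ k₂, fun k hk => ?_⟩
  obtain ⟨C₁, hC₁1, hC₁⟩ := hk₁ (k + 1) ((le_max_left _ _).trans (hk.le.trans (Nat.le_succ k)))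
  obtain ⟨C₂, hC₂1, hC₂⟩ := hk₂ k ((le_max_right _ _).trans hk)
  obtain ⟨b, hb, hN⟩ := N_bound T
  obtain ⟨cS, hcS, hS⟩ := Sx_CkB L k (ts L)
  obtain ⟨cR, hcR, hR⟩ := R_CkB T k (ts L)
  obtain ⟨Kc, hKc, hcomp⟩ := exists_CkB_comp k (cs L k)
  have hC₁0 : 0 ≤ C₁ := zero_le_one.trans hC₁1
  set I₁ : ℝ := ‖ContinuousLinearMap.id ℝ (E2 →L[ℝ] E2)‖ with hI₁
  have hI₁0 : 0 ≤ I₁ := norm_nonneg _
  set E₁ : ℝ := I₁ * (2 ^ k * (cS * (I₁ * (2 ^ k * (cR * (Kc * (C₁ * Real.exp Λ))))))) with hE₁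
  have hE₁0 : 0 ≤ E₁ := by positivity
  set K : ℝ := 1 + b * C₁ + E₁ with hK
  have hbC : 0 ≤ b * C₁ := by positivity
  have hK1 : 1 ≤ K := by rw [hK]; linarith
  refine ⟨C₁ + C₂ * K, by nlinarith, ?_⟩
  intro f c y n M hM h0 hn hWn
  have hstep : ∀ s, stp L y n s = L.φ (ts L) (stp L y n (s + 1)) := stp_step L y n
  have hF := hC₁ ℝ f c y n M hM h0 hn
  -- gradients
  have hG : ∀ s ≤ n, CkB k 2 (C₁ * (M * Real.exp (Λ * s))) (grd L f (stp L y n s)) := by
    intro s hs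
    have h1 := CkB_gradient (hF s hs)
    rwa [gradient_sub_const] at h1
  have hdiff : ∀ s ≤ n, ∀ v ∈ ball (0 : E2) 2,
      DifferentiableAt ℝ (fun w => f (L.e (stp L y n s) w)) v := by
    intro s hs v hv
    have h1 : DifferentiableAt ℝ (fun w => f (L.e (stp L y n s) w) - c) v :=
      ((hF s hs).contDiffAt hv).differentiableAt (by exact_mod_cast Nat.succ_ne_zero k)
    have h2 := h1.add_const c
    simpa using h2
  have hτm : ∀ s, ∀ u ∈ ball (0 : E2) 2,
      L.τ (stp L y n s) (stp L y n (s + 1)) u ∈ ball (0 : E2) 1 := by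
    intro s u hu
    rw [hstep s]
    exact tau_step_mem L (t1_le_ts L) _ (ball_subset_closedBall (h23 hu))
  have hrec : ∀ s < n, ∀ u ∈ ball (0 : E2) 2, Wf T f (stp L y n s) u =
      Sx L (stp L y n (s + 1)) (ts L) u
        (Wf T f (stp L y n (s + 1)) (L.τ (stp L y n s) (stp L y n (s + 1)) u)) +
      -(Sx L (stp L y n (s + 1)) (ts L) u
        (T.R (L.φ (ts L) (stp L y n (s + 1))) (stp L y n (s + 1)) u
          (grd L f (stp L y n (s + 1)) (L.τ (stp L y n s) (stp L y n (s + 1)) u)))) := by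
    intro s hs u hu
    have h1 := Wf_step T (f := f) (t1_le_ts L) (stp L y n (s + 1)) (h23 hu) (by
      rw [← hstep s]
      exact hdiff (s + 1) hs _ (h12 (hτm s u hu)))
    rw [← hstep s] at h1
    rw [hstep s] at h1 ⊢
    exact h1
  -- the error term
  have hErr : ∀ s < n, CkB k 2 (E₁ * (M * Real.exp (Λ * s)))
      (fun u => -(Sx L (stp L y n (s + 1)) (ts L) u
        (T.R (L.φ (ts L) (stp L y n (s + 1))) (stp L y n (s + 1)) u
          (grd L f (stp L y n (s + 1)) (L.τ (stp L y n s) (stp L y n (s + 1)) u))))) := by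
    intro s hs
    have e1 : M * Real.exp (Λ * ((s + 1 : ℕ) : ℝ)) = Real.exp Λ * (M * Real.exp (Λ * s)) := by
      rw [mul_left_comm, ← Real.exp_add]; congr 2; push_cast; ring
    have hg : CkB k 2 (Kc * (C₁ * (M * Real.exp (Λ * ((s + 1 : ℕ) : ℝ)))))
        (fun u => grd L f (stp L y n (s + 1)) (L.τ (stp L y n s) (stp L y n (s + 1)) u)) := by
      refine hcomp E2 E2 E2 (grd L f (stp L y n (s + 1)))
        (L.τ (stp L y n s) (stp L y n (s + 1))) 2 2 _ (hG (s + 1) hs)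
        (fun u hu => h12 (hτm s u hu)) ?_ ?_
      · rw [hstep s]
        exact ((tau_step_smooth L (t1_le_ts L) _).mono h23).of_le (by exact_mod_cast le_top)
      · intro i hi hik u hu
        rw [hstep s]
        exact (norm_iteratedFDeriv_tau_step_le L hi (t1_le_ts L) _ (h23 hu)).trans (cc_le_cs L hik)
    have hpos : 0 ≤ Kc * (C₁ * (M * Real.exp (Λ * ((s + 1 : ℕ) : ℝ)))) := by positivity
    have h1 := CkB_bilin (ContinuousLinearMap.id ℝ (E2 →L[ℝ] E2))
      (hR (stp L y n (s + 1)) (ts L) hts) hg hcR hpos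
    have h2 := CkB_neg (CkB_bilin (ContinuousLinearMap.id ℝ (E2 →L[ℝ] E2))
      (hS (stp L y n (s + 1)) (ts L) hts) h1 hcS (by positivity))
    refine h2.mono le_rfl le_rfl (le_of_eq ?_)
    rw [e1, hE₁]; ring
  -- smoothness
  have hsm : ∀ m ≤ n, ∀ s, s + m = n → ContDiffOn ℝ k (Wf T f (stp L y n s)) (ball 0 2) := by
    intro m
    induction m with
    | zero =>
      intro _ s hs
      have : s = n := by omega
      subst this
      rw [stp_self]; exact hWn.1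
    | succ m ihm =>
      intro hm s hs
      have hsn : s < n := by omega
      have h1 := ihm (by omega) (s + 1) (by omega)
      have h2 : ContDiffOn ℝ k (fun u => Wf T f (stp L y n (s + 1))
          (L.τ (stp L y n s) (stp L y n (s + 1)) u)) (ball 0 2) := by
        refine h1.comp ?_ (fun u hu => h12 (hτm s u hu))
        rw [hstep s]
        exact ((tau_step_smooth L (t1_le_ts L) _).mono h23).of_le (by exact_mod_cast le_top)
      have h3 := ((hS (stp L y n (s + 1)) (ts L) hts).1.clm_apply h2).add (hErr s hsn).1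
      exact h3.congr (fun u hu => hrec s hsn u hu)
  have key := hC₂ y n (K * M) (fun s => Wf T f (stp L y n s)) _ (by positivity)
    (fun s hs => hsm (n - s) (by omega) s (by omega)) hrec
    (by
      intro s hs u hu
      have h1 : ‖T.N (stp L y n s) u‖ ≤ b := hN _ u (ball_subset_closedBall hu)
      have h2 : ‖grd L f (stp L y n s) u‖ ≤ C₁ * (M * Real.exp (Λ * s)) := (hG s hs).norm_le hu
      have hpos : 0 ≤ M * Real.exp (Λ * s) := by positivity
      calc ‖Wf T f (stp L y n s) u‖ ≤ ‖T.N (stp L y n s) u‖ * ‖grd L f (stp L y n s) u‖ :=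
            ContinuousLinearMap.le_opNorm _ _
        _ ≤ b * (C₁ * (M * Real.exp (Λ * s))) := by gcongr
        _ = (b * C₁) * (M * Real.exp (Λ * s)) := by ring
        _ ≤ K * (M * Real.exp (Λ * s)) := by
            refine mul_le_mul_of_nonneg_right ?_ hpos
            rw [hK]; linarith
        _ = K * M * Real.exp (Λ * s) := by ring)
    (by
      intro s hs
      refine (hErr s hs).mono le_rfl le_rfl ?_
      have hpos : 0 ≤ M * Real.exp (Λ * s) := by positivity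
      calc E₁ * (M * Real.exp (Λ * s)) ≤ K * (M * Real.exp (Λ * s)) := by
            refine mul_le_mul_of_nonneg_right ?_ hpos
            rw [hK]; linarith
        _ = K * M * Real.exp (Λ * s) := by ring)
    (by
      simp only [stp_self]
      refine hWn.mono le_rfl le_rfl ?_
      refine mul_le_mul_of_nonneg_right ?_ (Real.exp_pos _).le
      nlinarith)
  intro s hs
  have hpos : 0 ≤ M * Real.exp (Λ * s) := by positivity
  have hC₂0 : 0 ≤ C₂ := zero_le_one.trans hC₂1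
  have hK0 : 0 ≤ K := zero_le_one.trans hK1
  refine ⟨(hF s hs).mono le_rfl le_rfl ?_, (key s hs).mono le_rfl le_rfl ?_⟩
  · refine mul_le_mul_of_nonneg_right ?_ hpos
    have : 0 ≤ C₂ * K := by positivity
    linarith
  · calc C₂ * (K * M * Real.exp (Λ * s)) = (C₂ * K) * (M * Real.exp (Λ * s)) := by ring
      _ ≤ (C₁ + C₂ * K) * (M * Real.exp (Λ * s)) := by
          refine mul_le_mul_of_nonneg_right ?_ hpos
          linarith

end Vale.Agent.P207.N4.H545
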